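import Crest.Agent.R165.Rep
import Crest.Agent.R165.B.Pot

/-! # R165 block CW: definitions (moved unchanged from `C/Main.lean`) -/

set_option autoImplicit false
noncomputable section
open Classical

namespace Crest.Agent.R165

/-- critical two-point function in the plane for two spins on the same diagonal, as a Gaussian expectation along the
staircase path `0, e₀, e₀+e₁, …, (k,k)` -/
def stair (k : ℕ) : Finset Edge :=
  (Finset.range k).biUnion fun i => {bondEdge ((i : ℤ), (i : ℤ)) 0, bondEdge ((i : ℤ) + 1, (i : ℤ)) 1}
def wuCorr (k : ℕ) : ℝ := gauss gPl ((∏ e ∈ stair k, (1 - (2 * tc) • eM id e) : Ev HE) : Gr HE)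

end Crest.Agent.R165
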