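import Mathlib

/-! # R165 block CW: Cauchy determinant and Wallis asymptotics (owner helper18) -/

set_option autoImplicit false
noncomputable section
open Filter Topology Real

namespace Crest.Agent.R165

/-- one step of the Cauchy determinant -/
theorem cw_cauchy_succ {k : ℕ} (c : ℝ) (x y : Fin (k + 1) → ℝ) (h : ∀ i j, x i + y j ≠ 0) :
    (Matrix.of fun i j => c / (x i + y j)).det = c / (x 0 + y 0) *
      ((∏ i : Fin k, (x i.succ - x 0) / (x i.succ + y 0)) *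
        ((∏ j : Fin k, (y j.succ - y 0) / (x 0 + y j.succ)) *
          (Matrix.of fun i j : Fin k => c / (x i.succ + y j.succ)).det)) := by
  let B : Matrix (Fin (k + 1)) (Fin (k + 1)) ℝ := Matrix.of fun i j =>
    Fin.cases (c / (x 0 + y j)) (fun i' => (x i'.succ - x 0) / (x i'.succ + y 0) *
      ((y j - y 0) / (x 0 + y j) * (c / (x i'.succ + y j)))) i
  have e1 : (Matrix.of fun i j => c / (x i + y j)).det = B.det := by
    refine Matrix.det_eq_of_forall_row_eq_smul_add_const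
      (Fin.cases 0 fun i' => (x 0 + y 0) / (x i'.succ + y 0)) 0 rfl fun i j => ?_
    refine Fin.cases ?_ (fun i' => ?_) i
    · simp [B]
    · have h1 := h i'.succ j
      have h2 := h i'.succ 0
      have h3 := h 0 j
      simp only [B, Matrix.of_apply, Fin.cases_succ, Fin.cases_zero]
      field_simp
      ring
  rw [e1, Matrix.det_succ_column_zero, Fin.sum_univ_succ, Finset.sum_eq_zero (fun i _ => by simp [B]),
    add_zero, ← Matrix.det_mul_row, ← Matrix.det_mul_column]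
  simp only [B, Matrix.of_apply, Fin.cases_zero, Fin.val_zero, pow_zero, one_mul, Fin.succAbove_zero]
  congr 2

/-- Wu's Toeplitz determinant -/
def cwD (k : ℕ) : ℝ := (Matrix.of fun i j : Fin k => (2 / π) / (2 * ((j : ℝ) - i) + 1)).det

theorem cwD_succ (k : ℕ) : cwD (k + 1) = 2 / π * Wallis.W k * cwD k := by
  have h : ∀ i j : Fin (k + 1), -(2 * (i : ℝ)) + (2 * (j : ℝ) + 1) ≠ 0 := fun i j h0 => by
    have : (-(2 * ((i : ℕ) : ℤ)) + (2 * ((j : ℕ) : ℤ) + 1)) = 0 := by exact_mod_cast h0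
    omega
  have e := cw_cauchy_succ (2 / π) (fun i : Fin (k + 1) => -(2 * (i : ℝ))) (fun j => 2 * (j : ℝ) + 1) h
  have e1 : cwD (k + 1) =
      (Matrix.of fun i j : Fin (k + 1) => (2 / π) / (-(2 * (i : ℝ)) + (2 * (j : ℝ) + 1))).det := by
    unfold cwD; congr 1; ext i j; simp only [Matrix.of_apply]; congr 1; ring
  have e2 : (Matrix.of fun i j : Fin k =>
      (2 / π) / (-(2 * ((i.succ : ℕ) : ℝ)) + (2 * ((j.succ : ℕ) : ℝ) + 1))).det = cwD k := by
    unfold cwD; congr 1; ext i j; simp only [Matrix.of_apply, Fin.val_succ]; congr 1; push_cast; ring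
  rw [e1, e, e2, ← mul_assoc, ← mul_assoc, mul_assoc _ _ (∏ j : Fin k, _), ← Finset.prod_mul_distrib,
    Wallis.W, Finset.prod_range]
  congr 2
  · simp
  · refine Finset.prod_congr rfl fun i _ => ?_
    have : (0 : ℝ) ≤ (i : ℕ) := Nat.cast_nonneg _
    have h1 : -(2 * (((i : ℕ) : ℝ) + 1)) + 1 ≠ 0 := by linarith
    simp only [Fin.val_succ, Fin.val_zero, Nat.cast_zero, Nat.cast_add, Nat.cast_one, mul_zero, neg_zero,
      zero_add, sub_zero]
    have h2 : (2 * ((i : ℕ) : ℝ) + 1) ≠ 0 := by positivity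
    have h3 : (2 * ((i : ℕ) : ℝ) + 3) ≠ 0 := by positivity
    have h4 : (2 * (((i : ℕ) : ℝ) + 1) + 1) ≠ 0 := by positivity
    field_simp
    ring

theorem cwD_pos (k : ℕ) : 0 < cwD k := by
  induction k with
  | zero => simp [cwD]
  | succ k ih => rw [cwD_succ]; have := Wallis.W_pos k; positivity

theorem cw_W_lim (a b : ℝ) : Tendsto (fun k : ℕ => (2 / π * Wallis.W k) ^ 4 * (((k : ℝ) + a) / ((k : ℝ) + b)))
    atTop (𝓝 1) := by
  have h1 : Tendsto (fun k : ℕ => (2 / π * Wallis.W k) ^ 4) atTop (𝓝 ((2 / π * (π / 2)) ^ 4)) :=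
    (Wallis.tendsto_W_nhds_pi_div_two.const_mul _).pow 4
  have h2 : Tendsto (fun k : ℕ => ((k : ℝ) + a) / ((k : ℝ) + b)) atTop (𝓝 1) := by
    have h3 : Tendsto (fun k : ℕ => 1 + (a - b) / ((k : ℝ) + b)) atTop (𝓝 (1 + 0)) :=
      tendsto_const_nhds.add (tendsto_const_nhds.div_atTop
        (tendsto_atTop_add_const_right _ b tendsto_natCast_atTop_atTop))
    rw [add_zero] at h3
    refine h3.congr' ?_
    filter_upwards [(tendsto_atTop_add_const_right _ b tendsto_natCast_atTop_atTop).eventually_gt_atTop 0]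
      with k hk
    field_simp
    ring
  have h4 := h1.mul h2
  rwa [show (2 / π * (π / 2)) ^ 4 * 1 = 1 by field_simp] at h4

theorem cw_W_up (k : ℕ) : (2 / π * Wallis.W k) ^ 4 * (((k : ℝ) + 2) / ((k : ℝ) + 1)) ≤ 1 := by
  refine Monotone.ge_of_tendsto (monotone_nat_of_le_succ fun k => ?_) (cw_W_lim 2 1) k
  have hk : (0 : ℝ) ≤ k := Nat.cast_nonneg _
  have hW := Wallis.W_pos k
  rw [Wallis.W_succ, ← mul_assoc, mul_pow _ (_ * _), mul_assoc]
  refine mul_le_mul_of_nonneg_left ?_ (by positivity)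
  have h1 : 1 + 1 / (4 * ((k : ℝ) + 1) ^ 2) ≤ (2 * k + 2) / (2 * k + 1) * ((2 * k + 2) / (2 * k + 3)) := by
    rw [div_mul_div_comm, le_div_iff₀ (by positivity)]
    field_simp
    nlinarith
  have h2 : 1 + (4 : ℕ) * (1 / (4 * ((k : ℝ) + 1) ^ 2)) ≤ (1 + 1 / (4 * ((k : ℝ) + 1) ^ 2)) ^ 4 :=
    one_add_mul_le_pow (le_trans (by norm_num) (by positivity : (0 : ℝ) ≤ _)) 4
  refine le_trans ?_ (mul_le_mul_of_nonneg_right (h2.trans (pow_le_pow_left₀ (by positivity) h1 4))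
    (by positivity))
  push_cast
  field_simp
  nlinarith [mul_nonneg hk hk, mul_nonneg hk (mul_nonneg hk hk)]

theorem cw_W_low (k : ℕ) :
    1 ≤ (2 / π * Wallis.W (k + 1)) ^ 4 * ((((k + 1 : ℕ) : ℝ) + 1 / 2) / (((k + 1 : ℕ) : ℝ) + -(1 / 2))) := by
  refine Antitone.le_of_tendsto (antitone_nat_of_succ_le fun k => ?_)
    ((cw_W_lim (1 / 2) (-(1 / 2))).comp (tendsto_add_atTop_nat 1)) k
  have hk : (0 : ℝ) ≤ k := Nat.cast_nonneg _
  have hW := Wallis.W_pos (k + 1)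
  simp only [Function.comp]
  rw [Wallis.W_succ (k + 1), ← mul_assoc, mul_pow _ (_ * _), mul_assoc]
  refine mul_le_mul_of_nonneg_left ?_ (by positivity)
  push_cast
  have h1 : (2 * ((k : ℝ) + 1) + 2) / (2 * (k + 1) + 1) * ((2 * (k + 1) + 2) / (2 * (k + 1) + 3)) =
      (1 + -(1 / (4 * ((k : ℝ) + 2) ^ 2)))⁻¹ := by
    have : 4 * ((k : ℝ) + 2) ^ 2 - 1 ≠ 0 := by nlinarith
    refine eq_inv_of_mul_eq_one_left ?_
    field_simp
    ring
  have h0 : 1 / (4 * ((k : ℝ) + 2) ^ 2) ≤ 1 / 16 :=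
    one_div_le_one_div_of_le (by norm_num) (by nlinarith)
  have h2 : 1 + (4 : ℕ) * -(1 / (4 * ((k : ℝ) + 2) ^ 2)) ≤ (1 + -(1 / (4 * ((k : ℝ) + 2) ^ 2))) ^ 4 :=
    one_add_mul_le_pow (by linarith) 4
  rw [h1, inv_pow, inv_mul_le_iff₀ (pow_pos (by linarith) 4)]
  have e1 : (k : ℝ) + 1 + 1 + -(1 / 2) = (2 * k + 3) / 2 := by ring
  have e2 : (k : ℝ) + 1 + -(1 / 2) = (2 * k + 1) / 2 := by ring
  rw [e1, e2]
  refine le_trans ?_ (mul_le_mul_of_nonneg_right h2 (by positivity))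
  push_cast
  field_simp
  nlinarith [mul_nonneg hk hk, mul_nonneg hk (mul_nonneg hk hk)]

theorem cwD_lim : ∃ C : ℝ, 0 < C ∧ Tendsto (fun k : ℕ => (k : ℝ) ^ (1 / 4 : ℝ) * cwD k) atTop (𝓝 C) := by
  have hA : Antitone fun k : ℕ => cwD k ^ 4 * ((k : ℝ) + 1) := antitone_nat_of_succ_le fun k => by
    have h := cw_W_up k
    have hk : (0 : ℝ) < k + 1 := by positivity
    rw [← mul_div_assoc, div_le_one hk] at h
    rw [cwD_succ, mul_pow]
    push_cast
    nlinarith [pow_pos (cwD_pos k) 4]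
  have hM : Monotone fun k : ℕ => cwD (k + 1) ^ 4 * ((k : ℝ) + 1 / 2) := monotone_nat_of_le_succ fun k => by
    have h := cw_W_low k
    have hk : (0 : ℝ) ≤ k := Nat.cast_nonneg _
    rw [← mul_div_assoc, one_le_div (by push_cast; linarith)] at h
    rw [cwD_succ (k + 1), mul_pow]
    push_cast at h ⊢
    nlinarith [pow_pos (cwD_pos (k + 1)) 4]
  have hlow : ∀ k : ℕ, cwD 1 ^ 4 * (1 / 2) ≤ cwD k ^ 4 * ((k : ℝ) + 1) := fun k => by
    have h1 := hM (Nat.zero_le k)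
    have h2 := hA (Nat.le_succ k)
    simp only [Nat.cast_zero, zero_add, Nat.succ_eq_add_one, Nat.cast_add, Nat.cast_one] at h1 h2
    nlinarith [pow_pos (cwD_pos (k + 1)) 4]
  have hT := tendsto_atTop_ciInf hA ⟨_, Set.forall_mem_range.2 hlow⟩
  set L := ⨅ k : ℕ, cwD k ^ 4 * ((k : ℝ) + 1)
  have hL : 0 < L := lt_of_lt_of_le (by have := cwD_pos 1; positivity) (ge_of_tendsto' hT hlow)
  have h2 := (hT.mul (tendsto_natCast_div_add_atTop (1 : ℝ))).rpow_const (p := 1 / 4) (Or.inr (by norm_num))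
  refine ⟨_, by positivity, h2.congr fun k => ?_⟩
  have hk : (0 : ℝ) < k + 1 := by positivity
  rw [show cwD k ^ 4 * ((k : ℝ) + 1) * (k / (k + 1)) = k * cwD k ^ 4 by field_simp,
    Real.mul_rpow (Nat.cast_nonneg _) (pow_pos (cwD_pos k) 4).le]
  congr 1
  rw [show (1 / 4 : ℝ) = ((4 : ℕ) : ℝ)⁻¹ by norm_num]
  exact Real.pow_rpow_inv_natCast (cwD_pos k).le (by norm_num)

end Crest.Agent.R165
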