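import Mathlib

/-! # R165 block CW: the diagonal derivative of the potential kernel of `ℤ²` (owner helper18) -/

set_option autoImplicit false
noncomputable section
open Filter Topology Real

namespace Crest.Agent.R165

/-- five-point Laplacian in coordinates -/
def cwLap (h : ℤ × ℤ → ℝ) (a b : ℤ) : ℝ :=
  h (a + 1, b) + h (a - 1, b) + h (a, b + 1) + h (a, b - 1) - 4 * h (a, b)

theorem cw_liouville_le {h : ℤ × ℤ → ℝ} (hh : ∀ a b, cwLap h a b = 0) (h0 : Tendsto h cofinite (𝓝 0))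
    (x : ℤ × ℤ) : h x ≤ 0 := by
  by_contra hx
  rw [not_le] at hx
  have hf : {y | h x ≤ h y}.Finite := by
    have := h0.eventually (gt_mem_nhds hx)
    simpa only [eventually_cofinite, not_lt] using this
  obtain ⟨z, hz, hzm⟩ := hf.toFinset.exists_max_image h ⟨x, by simp⟩
  have hmax : ∀ y, h y ≤ h z := fun y => by
    by_cases hy : h x ≤ h y
    · exact hzm y (by simpa using hy)
    · exact (not_le.1 hy).le.trans (by simpa using hz)
  obtain ⟨w, hw, hwm⟩ := (hf.toFinset.filter fun y => h y = h z).exists_max_image Prod.fst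
    ⟨z, Finset.mem_filter.2 ⟨hz, rfl⟩⟩
  have hw' := (Finset.mem_filter.1 hw).2
  have e := hh w.1 w.2
  unfold cwLap at e
  have h1 : h (w.1 + 1, w.2) = h z := by
    have := hmax (w.1 + 1, w.2)
    have := hmax (w.1 - 1, w.2)
    have := hmax (w.1, w.2 + 1)
    have := hmax (w.1, w.2 - 1)
    have : h (w.1, w.2) = h z := hw'
    linarith
  have := hwm (w.1 + 1, w.2) (Finset.mem_filter.2 ⟨by simpa [h1] using hz, h1⟩)
  simp at this

theorem cw_liouville {h : ℤ × ℤ → ℝ} (hh : ∀ a b, cwLap h a b = 0) (h0 : Tendsto h cofinite (𝓝 0))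
    (x : ℤ × ℤ) : h x = 0 := by
  refine le_antisymm (cw_liouville_le hh h0 x) ?_
  have := cw_liouville_le (h := fun y => -h y) (fun a b => by
    have := hh a b; unfold cwLap at this ⊢; linarith) (by simpa using h0.neg) x
  simpa using this

theorem cw_decay {h : ℤ × ℤ → ℝ} {C : ℝ} (p : ℤ × ℤ)
    (hC : ∀ x : ℤ × ℤ, |h x| ≤ C / ((max (p.1 - x.1).natAbs (p.2 - x.2).natAbs : ℕ) + 1)) :
    Tendsto h cofinite (𝓝 0) := by
  have h1 : Tendsto (fun x : ℤ × ℤ => max (p.1 - x.1).natAbs (p.2 - x.2).natAbs) cofinite atTop := by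
    refine tendsto_atTop.2 fun N => eventually_cofinite.2 ?_
    refine ((Set.finite_Icc (p.1 - N) (p.1 + N)).prod (Set.finite_Icc (p.2 - N) (p.2 + N))).subset
      fun x hx => ?_
    simp only [Set.mem_ofPred_eq, Set.mem_prod, Set.mem_Icc] at hx ⊢
    omega
  have h2 := (tendsto_const_div_atTop_nhds_zero_nat C).comp ((tendsto_add_atTop_nat 1).comp h1)
  refine squeeze_zero_norm (fun x => ?_) h2
  simpa using hC x

/-- `λ = cos / (1 + sin)` -/
def cwL (θ : ℝ) : ℝ := cos θ / (1 + sin θ)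

theorem cw_sin {θ : ℝ} (hθ : θ ∈ Set.uIcc 0 (π / 2)) : 0 ≤ sin θ ∧ 0 ≤ cos θ := by
  rw [Set.uIcc_of_le (by positivity)] at hθ
  exact ⟨sin_nonneg_of_nonneg_of_le_pi hθ.1 (by linarith [hθ.2, pi_pos]),
    cos_nonneg_of_mem_Icc ⟨by linarith [hθ.1, pi_pos], hθ.2⟩⟩

theorem cwL_deriv {θ : ℝ} (hθ : θ ∈ Set.uIcc 0 (π / 2)) : HasDerivAt cwL (-(1 / (1 + sin θ))) θ := by
  have h := (cw_sin hθ).1
  refine ((hasDerivAt_cos θ).div ((hasDerivAt_sin θ).const_add 1) (by positivity)).congr_deriv ?_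
  field_simp
  linear_combination -(sin_sq_add_cos_sq θ)

theorem cwL_cont : ContinuousOn cwL (Set.uIcc 0 (π / 2)) := fun _ hθ =>
  (cwL_deriv hθ).continuousAt.continuousWithinAt

theorem cwL_nonneg {θ : ℝ} (hθ : θ ∈ Set.uIcc 0 (π / 2)) : 0 ≤ cwL θ := by
  have := cw_sin hθ
  exact div_nonneg this.2 (by linarith [this.1])

theorem cw_inv_cont : ContinuousOn (fun θ => 1 / (1 + sin θ)) (Set.uIcc 0 (π / 2)) :=
  continuousOn_const.div (by fun_prop) fun θ hθ => by have := (cw_sin hθ).1; positivity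

def cwI (s : ℤ) (m : ℕ) : ℝ := ∫ θ in (0 : ℝ)..π / 2, sin (s * θ) * cwL θ ^ m

theorem cwI_int (s : ℤ) (m : ℕ) :
    IntervalIntegrable (fun θ => sin (s * θ) * cwL θ ^ m) MeasureTheory.volume 0 (π / 2) :=
  (ContinuousOn.mul (by fun_prop) (cwL_cont.pow m)).intervalIntegrable

theorem cw_pow_cont (m : ℕ) :
    ContinuousOn (fun θ => ((m + 1 : ℕ) : ℝ) * cwL θ ^ m * (1 / (1 + sin θ))) (Set.uIcc 0 (π / 2)) :=
  (continuousOn_const.mul (cwL_cont.pow m)).mul cw_inv_cont

theorem cw_pow_int (m : ℕ) :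
    ∫ θ in (0 : ℝ)..π / 2, ((m + 1 : ℕ) : ℝ) * cwL θ ^ m * (1 / (1 + sin θ)) = 1 := by
  rw [intervalIntegral.integral_eq_sub_of_hasDerivAt (f := fun θ => -cwL θ ^ (m + 1))
    (fun θ hθ => (((cwL_deriv hθ).pow (m + 1)).neg).congr_deriv (by simp))
    (cw_pow_cont m).intervalIntegrable]
  simp [cwL]

theorem cwI_le_m (s : ℤ) (m : ℕ) : |cwI s m| * (m + 1) ≤ 2 := by
  have h := intervalIntegral.norm_integral_le_of_norm_le (μ := MeasureTheory.volume) (a := 0) (b := π / 2)
    (by positivity) (f := fun θ => ((m + 1 : ℕ) : ℝ) * (sin (s * θ) * cwL θ ^ m))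
    (g := fun θ => 2 * (((m + 1 : ℕ) : ℝ) * cwL θ ^ m * (1 / (1 + sin θ))))
    (Eventually.of_forall fun θ hθ => by
      have hθ' : θ ∈ Set.uIcc 0 (π / 2) := Set.mem_uIcc_of_le hθ.1.le hθ.2
      have h1 := (cw_sin hθ').1
      have h2 := pow_nonneg (cwL_nonneg hθ') m
      have h3 : 1 ≤ 2 * (1 / (1 + sin θ)) := by
        rw [mul_one_div, le_div_iff₀ (by positivity)]; linarith [sin_le_one θ]
      rw [Real.norm_eq_abs, abs_mul, abs_mul, abs_of_nonneg h2, Nat.abs_cast]
      have h4 : |sin (s * θ)| * cwL θ ^ m ≤ 2 * (1 / (1 + sin θ)) * cwL θ ^ m :=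
        mul_le_mul_of_nonneg_right ((abs_sin_le_one _).trans h3) h2
      exact (mul_le_mul_of_nonneg_left h4 (Nat.cast_nonneg _)).trans_eq (by ring))
    (continuousOn_const.mul ((continuousOn_const.mul (cwL_cont.pow m)).mul cw_inv_cont)).intervalIntegrable
  rw [intervalIntegral.integral_const_mul, intervalIntegral.integral_const_mul, cw_pow_int,
    Real.norm_eq_abs, abs_mul, Nat.abs_cast] at h
  push_cast at h
  unfold cwI
  linarith

theorem cwI_le_s (s : ℤ) (m : ℕ) : |cwI s m| * |(s : ℝ)| ≤ 2 := by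
  have hd : ∀ θ : ℝ, HasDerivAt (fun θ : ℝ => -cos (s * θ)) (s * sin (s * θ)) θ := fun θ =>
    (((hasDerivAt_id θ).const_mul (s : ℝ)).cos.neg).congr_deriv (by simp [mul_comm])
  rw [← abs_mul, mul_comm, cwI, ← intervalIntegral.integral_const_mul]
  cases m with
  | zero =>
    simp only [pow_zero, mul_one]
    rw [intervalIntegral.integral_eq_sub_of_hasDerivAt (fun θ _ => hd θ)
      (Continuous.intervalIntegrable (by fun_prop) _ _), abs_le]
    constructor <;> simp <;> linarith [cos_le_one (s * (π / 2)), neg_one_le_cos (s * (π / 2))]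
  | succ m =>
    have c1 := cw_pow_cont m
    have i1 := (cwI_int s (m + 1)).const_mul (s : ℝ)
    have i2 : IntervalIntegrable (fun θ => cos (s * θ) * (((m + 1 : ℕ) : ℝ) * cwL θ ^ m * (1 / (1 + sin θ))))
        MeasureTheory.volume 0 (π / 2) := (ContinuousOn.mul (by fun_prop) c1).intervalIntegrable
    have e := intervalIntegral.integral_eq_sub_of_hasDerivAt (f := fun θ => -cos (s * θ) * cwL θ ^ (m + 1))
      (fun θ hθ => ((hd θ).mul ((cwL_deriv hθ).pow (m + 1))).congr_deriv (by simp; ring)) (i1.add i2)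
    rw [intervalIntegral.integral_add i1 i2] at e
    have h := intervalIntegral.norm_integral_le_of_norm_le (μ := MeasureTheory.volume) (a := 0) (b := π / 2)
      (by positivity) (f := fun θ => cos (s * θ) * (((m + 1 : ℕ) : ℝ) * cwL θ ^ m * (1 / (1 + sin θ))))
      (Eventually.of_forall fun θ hθ => by
        have hθ' : θ ∈ Set.uIcc 0 (π / 2) := Set.mem_uIcc_of_le hθ.1.le hθ.2
        have h1 := (cw_sin hθ').1
        have h2 := pow_nonneg (cwL_nonneg hθ') m
        have h3 : 0 ≤ ((m + 1 : ℕ) : ℝ) * cwL θ ^ m * (1 / (1 + sin θ)) := by positivity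
        rw [Real.norm_eq_abs, abs_mul, abs_of_nonneg h3]
        exact mul_le_of_le_one_left h3 (abs_cos_le_one _)) c1.intervalIntegrable
    rw [cw_pow_int, Real.norm_eq_abs, abs_le] at h
    have e0 : cwL (π / 2) = 0 := by simp [cwL]
    have e1 : cwL 0 = 1 := by simp [cwL]
    simp only [e0, e1, mul_zero, cos_zero, one_pow, ne_eq, Nat.add_eq_zero_iff, one_ne_zero, and_false,
      not_false_eq_true, zero_pow] at e
    rw [abs_le]
    constructor <;> linarith [h.1, h.2]

theorem cw_sin_add (s : ℤ) (θ : ℝ) :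
    sin (((s + 1 : ℤ) : ℝ) * θ) + sin (((s - 1 : ℤ) : ℝ) * θ) = 2 * sin (s * θ) * cos θ := by
  push_cast
  rw [add_mul, sub_mul, one_mul, sin_add, sin_sub]
  ring

theorem cwI_four (s : ℤ) (m m' n : ℕ) :
    cwI (s + 1) m + cwI (s - 1) m + cwI (s + 1) m' + cwI (s - 1) m' - 4 * cwI s n =
      ∫ θ in (0 : ℝ)..π / 2, sin (s * θ) * (2 * cos θ * (cwL θ ^ m + cwL θ ^ m') - 4 * cwL θ ^ n) := by
  unfold cwI
  rw [← intervalIntegral.integral_add (cwI_int _ _) (cwI_int _ _),
    ← intervalIntegral.integral_add ((cwI_int _ _).add (cwI_int _ _)) (cwI_int _ _),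
    ← intervalIntegral.integral_add (((cwI_int _ _).add (cwI_int _ _)).add (cwI_int _ _)) (cwI_int _ _),
    ← intervalIntegral.integral_const_mul, ← intervalIntegral.integral_sub
      ((((cwI_int _ _).add (cwI_int _ _)).add (cwI_int _ _)).add (cwI_int _ _)) ((cwI_int _ _).const_mul _)]
  refine intervalIntegral.integral_congr fun θ _ => ?_
  linear_combination (cwL θ ^ m + cwL θ ^ m') * cw_sin_add s θ

theorem cwI_harm (s : ℤ) (m : ℕ) :
    cwI (s + 1) (m + 2) + cwI (s - 1) (m + 2) + cwI (s + 1) m + cwI (s - 1) m - 4 * cwI s (m + 1) = 0 := by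
  rw [cwI_four, intervalIntegral.integral_congr (g := fun _ => (0 : ℝ)) fun θ hθ => ?_]
  · simp
  · have h := (cw_sin hθ).1
    have : cos θ * (cwL θ ^ 2 + 1) = 2 * cwL θ := by
      unfold cwL
      field_simp
      linear_combination cos θ * (sin_sq_add_cos_sq θ)
    linear_combination 2 * sin (s * θ) * cwL θ ^ m * this

theorem cw_cos_int (j : ℤ) : ∫ θ in (0 : ℝ)..π / 2, cos (2 * j * θ) = if j = 0 then π / 2 else 0 := by
  split_ifs with h
  · simp [h]
  · have hj : (2 * (j : ℝ)) ≠ 0 := by simpa using h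
    rw [intervalIntegral.integral_comp_mul_left (fun θ => cos θ) hj, integral_cos,
      show 2 * (j : ℝ) * (π / 2) = j * π by ring, sin_int_mul_pi]
    simp

theorem cwI_src (j : ℤ) :
    cwI (2 * j + 1 + 1) 1 + cwI (2 * j + 1 - 1) 1 + cwI (2 * j + 1 + 1) 1 + cwI (2 * j + 1 - 1) 1 -
      4 * cwI (2 * j + 1) 0 = π * ((if j + 1 = 0 then 1 else 0) - if j = 0 then 1 else 0) := by
  rw [cwI_four, intervalIntegral.integral_congr
    (g := fun θ => 2 * cos (2 * ((j + 1 : ℤ) : ℝ) * θ) - 2 * cos (2 * j * θ)) fun θ hθ => ?_]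
  · rw [intervalIntegral.integral_sub (Continuous.intervalIntegrable (by fun_prop) _ _)
      (Continuous.intervalIntegrable (by fun_prop) _ _), intervalIntegral.integral_const_mul,
      intervalIntegral.integral_const_mul, cw_cos_int, cw_cos_int]
    split_ifs <;> ring
  · have h := (cw_sin hθ).1
    have : cos θ * cwL θ = 1 - sin θ := by
      unfold cwL
      field_simp
      linear_combination sin_sq_add_cos_sq θ
    push_cast
    rw [show 2 * ((j : ℝ) + 1) * θ = (2 * j + 1) * θ + θ by ring,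
      show 2 * (j : ℝ) * θ = (2 * j + 1) * θ - θ by ring, cos_add, cos_sub]
    linear_combination 4 * sin ((2 * j + 1) * θ) * this

theorem cwI_diag (j : ℤ) : cwI (2 * j + 1) 0 = 1 / (2 * j + 1) := by
  have hj : (((2 * j + 1 : ℤ) : ℝ)) ≠ 0 := by
    rw [Int.cast_ne_zero]; omega
  simp only [cwI, pow_zero, mul_one]
  rw [intervalIntegral.integral_comp_mul_left (fun θ => sin θ) hj, integral_sin,
    (cos_eq_zero_iff (θ := ((2 * j + 1 : ℤ) : ℝ) * (π / 2))).2 ⟨j, by push_cast; ring⟩]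
  simp

/-- `cwd x = a (x + (1,1)) - a x` for the potential kernel `a` -/
def cwd (x : ℤ × ℤ) : ℝ := cwI (x.1 + x.2 + 1) (x.1 - x.2).natAbs / π

theorem cwd_diag (j : ℤ) : cwd (j, j) = 1 / π / (2 * j + 1) := by
  simp only [cwd, sub_self, Int.natAbs_zero]
  rw [show j + j + 1 = 2 * j + 1 by ring, cwI_diag]
  ring

theorem cwd_lap (a b : ℤ) : cwLap cwd a b =
    (if (a, b) = ((-1 : ℤ), (-1 : ℤ)) then 1 else 0) - if (a, b) = ((0 : ℤ), (0 : ℤ)) then 1 else 0 := by
  simp only [cwLap, cwd]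
  rw [show a + 1 + b + 1 = a + b + 1 + 1 by ring, show a - 1 + b + 1 = a + b + 1 - 1 by ring,
    show a + (b + 1) + 1 = a + b + 1 + 1 by ring, show a + (b - 1) + 1 = a + b + 1 - 1 by ring]
  have hp := pi_pos.ne'
  rcases lt_trichotomy a b with h | h | h
  · obtain ⟨m, hm⟩ : ∃ m : ℕ, b = a + 1 + m := ⟨(b - a - 1).toNat, by omega⟩
    rw [show (a + 1 - b).natAbs = m by omega, show (a - 1 - b).natAbs = m + 2 by omega,
      show (a - (b + 1)).natAbs = m + 2 by omega, show (a - (b - 1)).natAbs = m by omega,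
      show (a - b).natAbs = m + 1 by omega, if_neg (by simp; omega), if_neg (by simp; omega)]
    linear_combination (cwI_harm (a + b + 1) m) / π
  · subst h
    rw [show (a + 1 - a).natAbs = 1 by omega, show (a - 1 - a).natAbs = 1 by omega,
      show (a - (a + 1)).natAbs = 1 by omega, show (a - (a - 1)).natAbs = 1 by omega,
      show (a - a).natAbs = 0 by omega, show a + a + 1 = 2 * a + 1 by ring]
    have e := cwI_src a
    simp only [Prod.mk.injEq, and_self, ← add_eq_zero_iff_eq_neg]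
    field_simp
    linear_combination e
  · obtain ⟨m, hm⟩ : ∃ m : ℕ, a = b + 1 + m := ⟨(a - b - 1).toNat, by omega⟩
    rw [show (a + 1 - b).natAbs = m + 2 by omega, show (a - 1 - b).natAbs = m by omega,
      show (a - (b + 1)).natAbs = m by omega, show (a - (b - 1)).natAbs = m + 2 by omega,
      show (a - b).natAbs = m + 1 by omega, if_neg (by simp; omega), if_neg (by simp; omega)]
    linear_combination (cwI_harm (a + b + 1) m) / π

theorem cwd_decay : Tendsto cwd cofinite (𝓝 0) := by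
  refine cw_decay (C := 2) (0, 0) fun x => ?_
  rw [le_div_iff₀ (by positivity), cwd, abs_div, abs_of_pos pi_pos, div_mul_eq_mul_div,
    div_le_iff₀ pi_pos]
  have h1 := cwI_le_m (x.1 + x.2 + 1) (x.1 - x.2).natAbs
  have h2 := cwI_le_s (x.1 + x.2 + 1) (x.1 - x.2).natAbs
  have h3 : ((max ((0 : ℤ) - x.1).natAbs ((0 : ℤ) - x.2).natAbs : ℕ) : ℝ) + 1 ≤
      ((x.1 - x.2).natAbs + 1) + |((x.1 + x.2 + 1 : ℤ) : ℝ)| := by
    rw [← Int.cast_abs, Int.abs_eq_natAbs, Int.cast_natCast]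
    exact_mod_cast (by omega)
  have h4 := mul_le_mul_of_nonneg_left h3 (abs_nonneg (cwI (x.1 + x.2 + 1) (x.1 - x.2).natAbs))
  linarith [pi_gt_three]

end Crest.Agent.R165
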