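import Crest.Agent.R165.B.Alg
import Crest.Agent.R165.CW.Pot

/-! # R165 block CW: corner values of the plane kernel on the diagonal (owner helper18) -/

set_option autoImplicit false
noncomputable section
open Classical Filter Topology

namespace Crest.Agent.R165

theorem cw_opA0 (s : Fn) (a b : ℤ) : opA wPl s ((a, b), 0) =
    s ((a, b), 1) + s ((a, b), 2) + s ((a, b), 3) + tc * s ((a + 1, b), 2) := by
  simp [opA, sv, opp, dv, wPl]

theorem cw_opA1 (s : Fn) (a b : ℤ) : opA wPl s ((a, b), 1) =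
    s ((a, b), 2) + s ((a, b), 3) - s ((a, b), 0) + tc * s ((a, b + 1), 3) := by
  simp [opA, sv, opp, dv, wPl, sub_eq_add_neg]

theorem cw_opA2 (s : Fn) (a b : ℤ) : opA wPl s ((a, b), 2) =
    s ((a, b), 3) - s ((a, b), 0) - s ((a, b), 1) - tc * s ((a - 1, b), 0) := by
  simp [opA, sv, opp, dv, wPl, sub_eq_add_neg]

theorem cw_opA3 (s : Fn) (a b : ℤ) : opA wPl s ((a, b), 3) =
    -s ((a, b), 0) - s ((a, b), 1) - s ((a, b), 2) - tc * s ((a, b - 1), 1) := by
  simp [opA, sv, opp, dv, wPl, sub_eq_add_neg]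

/-- value at the NE corner -/
def cwU (s : Fn) (x : Site) : ℝ := s (x, 0) + tc * s ((x.1 + 1, x.2), 2)
/-- (averaged) value at the SW corner -/
def cwV (s : Fn) (x : Site) : ℝ := s (x, 0) + s (x, 1) + s (x, 2) - s (x, 3)

section
variable {s : Fn} {δ : Site → ℝ} (h0 : ∀ x, opA wPl s (x, 0) = δ x) (h1 : ∀ x, opA wPl s (x, 1) = δ x)
  (h2 : ∀ x, opA wPl s (x, 2) = δ x) (h3 : ∀ x, opA wPl s (x, 3) = -δ x)
include h0 h1 h2 h3

theorem cw_cr1 (a b : ℤ) : cwU s (a, b + 1) - cwU s (a, b) =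
    cwV s (a + 1, b + 1) - cwV s (a, b + 1) + δ (a + 1, b + 1) + δ (a, b + 1) := by
  have e1 := h3 (a, b + 1)
  have e2 := h0 (a, b + 1)
  have e3 := h0 (a, b)
  have e4 := h1 (a, b)
  have e5 := h2 (a + 1, b + 1)
  simp only [cw_opA0, cw_opA1, cw_opA2, cw_opA3, add_sub_cancel_right] at e1 e2 e3 e4 e5
  simp only [cwU, cwV]
  linear_combination -(1 + tc) * (e1 + e2) - e3 + e4 + e5 - e1 +
    (s ((a + 1, b + 1), 2) - s ((a, b), 1)) * tc_sq

theorem cw_cr2 (a b : ℤ) : cwU s (a + 1, b) - cwU s (a, b) =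
    cwV s (a + 1, b) - cwV s (a + 1, b + 1) + δ (a + 1, b + 1) + δ (a + 1, b) := by
  have e1 := h1 (a + 1, b)
  have e2 := h2 (a + 1, b)
  have e3 := h0 (a + 1, b)
  have e4 := h3 (a + 1, b + 1)
  simp only [cw_opA0, cw_opA1, cw_opA2, cw_opA3, add_sub_cancel_right] at e1 e2 e3 e4
  simp only [cwU, cwV]
  linear_combination -(1 + tc) * (e1 - e2) + e3 - e1 + e2 - e4 +
    (s ((a + 1, b + 1), 3) + s ((a, b), 0)) * tc_sq

theorem cw_lapU (a b : ℤ) : cwLap (cwU s) a b = 2 * (δ (a + 1, b + 1) - δ (a, b)) := by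
  have e1 := cw_cr1 h0 h1 h2 h3 a b
  have e2 := cw_cr1 h0 h1 h2 h3 a (b - 1)
  have e3 := cw_cr2 h0 h1 h2 h3 a b
  have e4 := cw_cr2 h0 h1 h2 h3 (a - 1) b
  simp only [sub_add_cancel] at e2 e4
  unfold cwLap
  linear_combination e1 - e2 + e3 - e4

theorem cw_lapV (a b : ℤ) :
    cwLap (cwV s) a b = δ (a - 1, b) - δ (a + 1, b) + δ (a, b + 1) - δ (a, b - 1) := by
  have e1 := cw_cr1 h0 h1 h2 h3 a (b - 1)
  have e2 := cw_cr1 h0 h1 h2 h3 (a - 1) (b - 1)
  have e3 := cw_cr2 h0 h1 h2 h3 (a - 1) b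
  have e4 := cw_cr2 h0 h1 h2 h3 (a - 1) (b - 1)
  simp only [sub_add_cancel] at e1 e2 e3 e4
  unfold cwLap
  linear_combination -e1 + e2 + e3 - e4

end

/-- the solution with its source at the SW corner of `p` -/
def cwS (g : HE → HE → ℝ) (p : Site) : Fn := fun i => g (p, 0) i + g (p, 1) i + g (p, 2) i - g (p, 3) i

theorem cwS_opA (g : HE → HE → ℝ) (p : Site) (i : HE) : opA wPl (cwS g p) i =
    opA wPl (g (p, 0)) i + opA wPl (g (p, 1)) i + opA wPl (g (p, 2)) i - opA wPl (g (p, 3)) i := by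
  obtain ⟨⟨a, b⟩, α⟩ := i
  have : α = 0 ∨ α = 1 ∨ α = 2 ∨ α = 3 := by omega
  rcases this with rfl | rfl | rfl | rfl <;> simp only [cw_opA0, cw_opA1, cw_opA2, cw_opA3, cwS] <;> ring

theorem cw_corner {g : HE → HE → ℝ} (hg : IsKer wPl g) {C : ℝ} (hC : ∀ i j, |g i j| ≤ C / (supd i.1 j.1 + 1))
    (i j : ℤ) : cwU (cwS g (i, i)) (j, j) = 2 / Real.pi / (2 * ((j : ℝ) - i) + 1) ∧
      cwV (cwS g (i, i)) (j, j) = 0 := by
  set δ : Site → ℝ := fun x => if x = (i, i) then 1 else 0 with hδ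
  have h0 : ∀ x, opA wPl (cwS g (i, i)) (x, 0) = δ x := fun x => by simp [cwS_opA, hg.2, hδ]
  have h1 : ∀ x, opA wPl (cwS g (i, i)) (x, 1) = δ x := fun x => by simp [cwS_opA, hg.2, hδ]
  have h2 : ∀ x, opA wPl (cwS g (i, i)) (x, 2) = δ x := fun x => by simp [cwS_opA, hg.2, hδ]
  have h3 : ∀ x, opA wPl (cwS g (i, i)) (x, 3) = -δ x := fun x => by simp [cwS_opA, hg.2, hδ]
  have d0 : ∀ β α, Tendsto (fun x : Site => g ((i, i), β) (x, α)) cofinite (𝓝 0) := fun β α =>
    cw_decay (C := C) (i, i) fun x => hC _ _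
  have d1 : ∀ α, Tendsto (fun x : Site => cwS g (i, i) (x, α)) cofinite (𝓝 0) := fun α => by
    simpa [cwS] using (((d0 0 α).add (d0 1 α)).add (d0 2 α)).sub (d0 3 α)
  have i1 : Function.Injective fun x : Site => ((x.1 + 1, x.2) : Site) := fun x y h => by
    simp only [Prod.mk.injEq, add_left_inj] at h; exact Prod.ext h.1 h.2
  have i2 : Function.Injective fun x : Site => ((x.1 - i, x.2 - i) : Site) := fun x y h => by
    simp only [Prod.mk.injEq, sub_left_inj] at h; exact Prod.ext h.1 h.2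
  have dU : Tendsto (cwU (cwS g (i, i))) cofinite (𝓝 0) := by
    unfold cwU
    simpa using (d1 0).add (((d1 2).comp i1.tendsto_cofinite).const_mul tc)
  have dV : Tendsto (cwV (cwS g (i, i))) cofinite (𝓝 0) := by
    unfold cwV
    simpa using (((d1 0).add (d1 1)).add (d1 2)).sub (d1 3)
  constructor
  · have := cw_liouville (h := fun x => cwU (cwS g (i, i)) x - 2 * cwd (x.1 - i, x.2 - i)) (fun a b => by
      have e1 := cw_lapU h0 h1 h2 h3 a b
      have e2 := cwd_lap (a - i) (b - i)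
      have e3 : δ (a + 1, b + 1) = if (a - i, b - i) = ((-1 : ℤ), (-1 : ℤ)) then 1 else 0 := by
        simp only [hδ, Prod.mk.injEq]; congr 1; apply propext; omega
      have e4 : δ (a, b) = if (a - i, b - i) = ((0 : ℤ), (0 : ℤ)) then 1 else 0 := by
        simp only [hδ, Prod.mk.injEq]; congr 1; apply propext; omega
      rw [← e3, ← e4] at e2
      simp only [cwLap] at e1 e2 ⊢
      rw [add_sub_right_comm a, sub_right_comm a, add_sub_right_comm b, sub_right_comm b]
      linear_combination e1 - 2 * e2)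
      (by simpa using dU.sub ((cwd_decay.comp i2.tendsto_cofinite).const_mul 2)) (j, j)
    simp only [cwd_diag] at this
    push_cast at this
    linear_combination this
  · have := cw_liouville (h := fun x => cwV (cwS g (i, i)) x + cwV (cwS g (i, i)) x.swap) (fun a b => by
      have e1 := cw_lapV h0 h1 h2 h3 a b
      have e2 := cw_lapV h0 h1 h2 h3 b a
      have e3 : ∀ a b, δ (a, b) = δ (b, a) := fun a b => by simp only [hδ, Prod.mk.injEq, and_comm]
      simp only [cwLap, Prod.swap_prod_mk] at e1 e2 ⊢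
      linear_combination e1 + e2 + e3 (a - 1) b - e3 (a + 1) b + e3 a (b + 1) - e3 a (b - 1))
      (by simpa using dV.add (dV.comp Prod.swap_injective.tendsto_cofinite)) (j, j)
    simp only [Prod.swap_prod_mk] at this
    linarith

end Crest.Agent.R165
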