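import Crest.Agent.R165.Rep
import Crest.Agent.R165.CW.Cor

/-! # R165 block CW: reduction of the staircase to corner fermions (owner helper18) -/

set_option autoImplicit false
noncomputable section
open Classical

namespace Crest.Agent.R165

section
variable {I : Type}

local notation "ι'" => ExteriorAlgebra.ι ℝ

theorem cw_swap (u v : GV I) (z : Gr I) : ι' u * (ι' v * z) = -(ι' v * (ι' u * z)) := by
  rw [← mul_assoc, iota_swap, neg_mul, mul_assoc]

theorem cw_sq (u : GV I) (z : Gr I) : ι' u * (ι' u * z) = 0 := by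
  rw [← mul_assoc, ExteriorAlgebra.ι_sq_zero, zero_mul]

/-- Schwinger–Dyson at one site -/
theorem cw_site (φ : Gr I →ₗ[ℝ] ℝ) (a w d p r : GV I) (dE dS : Module.Dual ℝ (GV I))
    (hE : ∀ Y, φ (ι' (w + d + p) * Y) = -φ (ctr dE Y)) (hS : ∀ Y, φ (ι' (r - a - w) * Y) = -φ (ctr dS Y))
    (ea : dE a = 1) (ew : dE w = 0) (ed : dE d = 0) (er : dE r = 0) (sa : dS a = 0) (sw : dS w = 0)
    (sd : dS d = 1) {X : Gr I} (hX : ctr dE X = 0) (hX' : ctr dS X = 0) :
    φ ((1 - (2 : ℝ) • (ι' d * ι' r)) * (1 - (2 : ℝ) • (ι' a * ι' p)) * X) =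
      φ (ι' (a + w - d) * ι' (a + p) * X) := by
  have e1 := hE (ι' a * X)
  have e2 := hE (ι' w * X)
  have e3 := hE (ι' d * X)
  have e4 := hE (ι' a * (ι' d * (ι' r * X)))
  have e5 := hS (ι' d * X)
  have e6 := hS (ι' a * (ι' w * (ι' d * X)))
  simp only [ctr_iota_mul, ea, ew, ed, er, sa, sw, sd, hX, hX', map_add, map_sub, map_neg, map_smul, map_zero,
    add_mul, sub_mul, mul_add, mul_sub, mul_assoc, one_mul, mul_one, smul_mul_assoc, mul_smul_comm, one_smul,
    zero_smul, mul_zero, sub_zero, zero_sub, neg_zero, mul_neg, neg_neg, smul_eq_mul, cw_sq, cw_swap w a,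
    cw_swap d a, cw_swap p a, cw_swap r a, cw_swap d w, cw_swap p w, cw_swap r w, cw_swap p d, cw_swap r d,
    cw_swap r p] at e1 e2 e3 e4 e5 e6 ⊢
  linarith

theorem cw_iota_wedge (v : GV I) (l : List (GV I)) :
    ι' v * wedge l = (-1 : ℝ) ^ l.length • (wedge l * ι' v) := by
  induction l with
  | nil => simp [wedge_nil]
  | cons u l ih => rw [wedge_cons, cw_swap, ih, List.length_cons, pow_succ, mul_smul_comm, mul_assoc]; simp

/-- the even element `ι u * ι v` -/
def cwP (u v : GV I) : Ev I := ⟨ι' u * ι' v, CliffordAlgebra.ι_mul_ι_mem_evenOdd_zero _ _ _⟩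

theorem cw_prod_wedge {k : ℕ} (u v : Fin k → GV I) : ∃ ε : ℝ, ε ^ 2 = 1 ∧
    ((∏ i, cwP (u i) (v i) : Ev I) : Gr I) = ε • wedge (List.ofFn (Fin.append u v)) := by
  rw [List.ofFn_fin_append, wedge_append]
  induction k with
  | zero => exact ⟨1, by simp, by simp [wedge_nil]⟩
  | succ k ih =>
    obtain ⟨ε, hε, h⟩ := ih (fun i => u i.succ) fun i => v i.succ
    refine ⟨ε * (-1) ^ k, by rw [mul_pow, hε, ← pow_mul, mul_comm k, pow_mul]; simp, ?_⟩
    rw [Fin.prod_univ_succ, Subalgebra.coe_mul, h, List.ofFn_succ, List.ofFn_succ (f := v), wedge_cons,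
      wedge_cons, mul_smul_comm, mul_smul]
    congr 1
    change ι' (u 0) * ι' (v 0) * _ = _
    rw [mul_assoc, ← mul_assoc (ι' (v 0)), cw_iota_wedge, List.length_ofFn]
    simp only [mul_smul_comm, smul_mul_assoc, mul_assoc]

theorem cw_gauss_det (g : I → I → ℝ) {k : ℕ} (u v : Fin k → GV I) (hu : ∀ i j, bil g (u i) (u j) = 0) :
    |gauss g ((∏ i, cwP (u i) (v i) : Ev I) : Gr I)| = |(Matrix.of fun i j => bil g (u i) (v j)).det| := by
  obtain ⟨ε, hε, h⟩ := cw_prod_wedge u v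
  have h1 := gauss_wedge_sq' g _ (Fin.append u v)
  have h2 := Matrix.abs_det_submatrix_equiv_equiv finSumFinEquiv ((Equiv.sumComm _ _).trans finSumFinEquiv)
    (Matrix.of fun a b => bil g (Fin.append u v a) (Fin.append u v b))
  have h3 : (Matrix.of fun a b => bil g (Fin.append u v a) (Fin.append u v b)).submatrix finSumFinEquiv
      ((Equiv.sumComm _ _).trans finSumFinEquiv) = Matrix.fromBlocks (Matrix.of fun i j => bil g (u i) (v j)) 0
        (Matrix.of fun i j => bil g (v i) (v j)) (-(Matrix.of fun i j => bil g (u i) (v j)).transpose) := by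
    ext (i | i) (j | j) <;> simp [hu, -Fin.natAdd_eq_addNat]
    exact bil_swap _ _ _
  rw [h3, Matrix.det_fromBlocks_zero₁₂, Matrix.det_neg, Matrix.det_transpose, ← h1, abs_mul, abs_mul, abs_pow,
    abs_neg, abs_one, one_pow, one_mul, abs_pow, ← sq] at h2
  have h4 : |ε| = 1 := by rw [← Real.sqrt_sq_eq_abs, hε, Real.sqrt_one]
  rw [h, map_smul, smul_eq_mul, abs_mul, h4, one_mul]
  exact (pow_left_inj₀ (abs_nonneg _) (abs_nonneg _) two_ne_zero).1 h2.symm

theorem cw_ctr_prod (d : Module.Dual ℝ (GV I)) {α : Type} (A : Finset α) (F : α → Ev I)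
    (h : ∀ i ∈ A, ctr d (F i : Gr I) = 0) : ctr d ((∏ i ∈ A, F i : Ev I) : Gr I) = 0 :=
  Finset.prod_induction F (fun x : Ev I => ctr d (x : Gr I) = 0)
    (fun x y hx hy => by rw [Subalgebra.coe_mul, ctr_mul_of_zero hy, hx, zero_mul]) (ctr_one d) h

theorem cw_ctr_P {d : Module.Dual ℝ (GV I)} {u v : GV I} (hu : d u = 0) (hv : d v = 0) :
    ctr d (ι' u * ι' v) = 0 := by
  rw [← mul_one (ι' v), ctr_iota_mul, ctr_iota_mul, hu, hv, ctr_one]; simp

end

/-- basis vector -/
def cwE (a b : ℤ) (α : Fin 4) : GV HE := Finsupp.single ((a, b), α) 1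
def cwN (i : ℤ) : GV HE := cwE i i 0 + (cwE i i 1 + cwE i i 2) - cwE i i 3
def cwQ (i : ℤ) : GV HE := cwE i i 0 + tc • cwE (i + 1) i 2
def cwF (i : ℤ) : Ev HE :=
  (1 - (2 * tc) • eM id (bondEdge (i, i) 0)) * (1 - (2 * tc) • eM id (bondEdge (i + 1, i) 1))

theorem cwF_coe (i : ℤ) : (cwF i : Gr HE) =
    (1 - (2 : ℝ) • (ExteriorAlgebra.ι ℝ (cwE i i 3) * ExteriorAlgebra.ι ℝ (-tc • cwE i (i - 1) 1))) *
      (1 - (2 : ℝ) • (ExteriorAlgebra.ι ℝ (cwE i i 0) * ExteriorAlgebra.ι ℝ (tc • cwE (i + 1) i 2))) := by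
  rw [iota_swap (cwE i i 3)]
  simp only [map_smul]
  simp [cwF, eM, th2, th, he0, he1, bondEdge, uv, cwE, mul_smul]

theorem cw_bil {g : HE → HE → ℝ} (hg : Antisym g) (i : ℤ) (k : HE) :
    bil g (cwN i) (Finsupp.single k 1) = cwS g (i, i) k := by
  simp only [cwN, cwE, cwS, map_add, map_sub, LinearMap.add_apply, LinearMap.sub_apply, hg.bil_single]
  ring

theorem cw_step {g : HE → HE → ℝ} (hg : IsKer wPl g) (i : ℤ) {X : Gr HE}
    (hX : ∀ α, ctr (Finsupp.lapply ((i, i), α)) X = 0) :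
    gauss g ((cwF i : Gr HE) * X) = gauss g ((cwP (cwN i) (cwQ i) : Gr HE) * X) := by
  have hE : bil g (cwE i i 1 + cwE i i 2 + cwE i i 3 + tc • cwE (i + 1) i 2) = -Finsupp.lapply ((i, i), 0) := by
    refine Finsupp.lhom_ext' fun k => LinearMap.ext_ring ?_
    have := hg.2 k ((i, i), 0)
    rw [cw_opA0] at this
    simp only [cwE, map_add, map_smul, LinearMap.comp_apply, Finsupp.lsingle_apply, LinearMap.add_apply,
      LinearMap.smul_apply, hg.1.bil_single, smul_eq_mul, LinearMap.neg_apply, Finsupp.lapply_apply,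
      Finsupp.single_apply, hg.1 k, eq_comm (a := k)]
    linarith
  have hS : bil g (-tc • cwE i (i - 1) 1 - cwE i i 0 - (cwE i i 1 + cwE i i 2)) =
      -Finsupp.lapply ((i, i), 3) := by
    refine Finsupp.lhom_ext' fun k => LinearMap.ext_ring ?_
    have := hg.2 k ((i, i), 3)
    rw [cw_opA3] at this
    simp only [cwE, map_add, map_sub, map_smul, LinearMap.comp_apply, Finsupp.lsingle_apply,
      LinearMap.add_apply, LinearMap.sub_apply,
      LinearMap.smul_apply, hg.1.bil_single, smul_eq_mul, LinearMap.neg_apply, Finsupp.lapply_apply,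
      Finsupp.single_apply, hg.1 k, eq_comm (a := k)]
    linarith
  rw [cwF_coe]
  exact cw_site (gauss g) (cwE i i 0) (cwE i i 1 + cwE i i 2) (cwE i i 3) (tc • cwE (i + 1) i 2)
    (-tc • cwE i (i - 1) 1) (Finsupp.lapply ((i, i), 0)) (Finsupp.lapply ((i, i), 3))
    (fun Y => by rw [gauss_iota_mul, hE, map_neg, LinearMap.neg_apply, map_neg])
    (fun Y => by rw [gauss_iota_mul, hS, map_neg, LinearMap.neg_apply, map_neg])
    (by simp [cwE]) (by simp [cwE]) (by simp [cwE]) (by simp [cwE]) (by simp [cwE]) (by simp [cwE])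
    (by simp [cwE]) (hX 0) (hX 3)

theorem cwE_zero {i a b : ℤ} (h : ¬(a = i ∧ b = i)) (α β : Fin 4) :
    (Finsupp.lapply ((i, i), α) : Module.Dual ℝ (GV HE)) (cwE a b β) = 0 := by
  simp only [cwE, Finsupp.lapply_apply, Finsupp.single_apply, Prod.mk.injEq]
  exact if_neg fun h' => h h'.1

theorem cw_replace {g : HE → HE → ℝ} (hg : IsKer wPl g) (A : Finset ℕ) : ∀ B : Finset ℕ, Disjoint A B →
    gauss g ((∏ i ∈ A, cwF i : Ev HE) * (∏ i ∈ B, cwP (cwN i) (cwQ i) : Ev HE) : Ev HE) =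
      gauss g ((∏ i ∈ A ∪ B, cwP (cwN i) (cwQ i) : Ev HE) : Gr HE) := by
  induction A using Finset.induction_on with
  | empty => simp
  | insert i A hi ih =>
    intro B hB
    rw [Finset.disjoint_insert_left] at hB
    rw [Finset.prod_insert hi, mul_assoc, Subalgebra.coe_mul, cw_step hg, ← Subalgebra.coe_mul, mul_left_comm,
      ← Finset.prod_insert hB.1 (f := fun i : ℕ => cwP (cwN i) (cwQ i)),
      ih _ (Finset.disjoint_insert_right.2 ⟨hi, hB.2⟩), Finset.union_insert, Finset.insert_union]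
    intro α
    rw [Subalgebra.coe_mul, ctr_mul_of_zero, cw_ctr_prod, zero_mul]
    · intro j hj
      have hij : j ≠ i := fun h => hi (h ▸ hj)
      rw [cwF_coe, ctr_mul_of_zero, map_sub, map_smul, cw_ctr_P, ctr_one]
      · simp
      · exact cwE_zero (by omega) _ _
      · rw [map_smul, cwE_zero (by omega), smul_zero]
      · rw [map_sub, map_smul, cw_ctr_P, ctr_one]
        · simp
        · exact cwE_zero (by omega) _ _
        · rw [map_smul, cwE_zero (by omega), smul_zero]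
    · refine cw_ctr_prod _ _ _ fun j hj => cw_ctr_P ?_ ?_
      all_goals have hij : j ≠ i := fun h => hB.1 (h ▸ hj)
      · rw [cwN, map_sub, map_add, map_add, cwE_zero (by omega), cwE_zero (by omega), cwE_zero (by omega),
          cwE_zero (by omega)]
        simp
      · rw [cwQ, map_add, map_smul, cwE_zero (by omega), cwE_zero (by omega)]
        simp

theorem cw_gauss {g : HE → HE → ℝ} (hg : IsKer wPl g) {C : ℝ} (hC : ∀ i j, |g i j| ≤ C / (supd i.1 j.1 + 1))
    (k : ℕ) : |gauss g ((∏ i ∈ Finset.range k, cwF i : Ev HE) : Gr HE)| =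
      |(Matrix.of fun i j : Fin k => (2 / Real.pi) / (2 * ((j : ℝ) - i) + 1)).det| := by
  have h := cw_replace hg (Finset.range k) ∅ (Finset.disjoint_empty_right _)
  rw [Finset.prod_empty, mul_one, Finset.union_empty] at h
  rw [h, Finset.prod_range fun i : ℕ => cwP (cwN i) (cwQ i), cw_gauss_det]
  · congr 2
    ext i j
    have := (cw_corner hg hC ((i : ℕ) : ℤ) ((j : ℕ) : ℤ)).1
    simp only [Matrix.of_apply, cwQ, cwE, map_add, map_smul, cw_bil hg.1, smul_eq_mul]
    exact_mod_cast this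
  · intro i j
    have := (cw_corner hg hC ((i : ℕ) : ℤ) ((j : ℕ) : ℤ)).2
    rw [show cwN ((j : ℕ) : ℤ) = cwE j j 0 + cwE j j 1 + cwE j j 2 - cwE j j 3 by rw [cwN, add_assoc]]
    simp only [cwE, map_add, map_sub, cw_bil hg.1]
    exact this

end Crest.Agent.R165
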