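import Crest.Agent.R165.CW.Defs
import Crest.Agent.R165.CW.Gra
import Crest.Agent.R165.CW.Det

/-! # R165 block CW: Wu's asymptotics (owner helper18) -/

set_option autoImplicit false
noncomputable section
open Classical Filter Topology

namespace Crest.Agent.R165

theorem cw_stair (k : ℕ) :
    (∏ e ∈ stair k, (1 - (2 * tc) • eM id e) : Ev HE) = ∏ i ∈ Finset.range k, cwF i := by
  rw [stair, Finset.prod_biUnion]
  · refine Finset.prod_congr rfl fun i _ => ?_
    rw [Finset.prod_pair (by simp [bondEdge]), cwF]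
  · intro i _ j _ hij
    simp only [Function.onFun, Finset.disjoint_insert_left, Finset.disjoint_singleton_left, Finset.mem_insert,
      Finset.mem_singleton]
    simp [bondEdge, hij]

theorem abs_wuCorr (k : ℕ) : |wuCorr k| = cwD k := by
  obtain ⟨C, hC⟩ := gPl_bound
  rw [wuCorr, cw_stair, cw_gauss gPl_ker hC]
  exact abs_of_pos (cwD_pos k)

/-- **Wu's asymptotics** (block CW) -/
theorem wu : ∃ C : ℝ, 0 < C ∧ Tendsto (fun k : ℕ => (k : ℝ) ^ (1 / 4 : ℝ) * |wuCorr k|) atTop (𝓝 C) := by
  simpa only [abs_wuCorr] using cwD_lim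

end Crest.Agent.R165
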